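import Vale.Agent.Helper12.KTVJ.Final
import Vale.Agent.Helper26.KTVG.PairJohnson

/-!
# The Johnson module statement for the switch chain on general graphs (problem P335)

The Johnson pair inequality in the form consumed by the pair-fibre transfer, and the
resulting module statement `KTVG.JohnsonStmt`.
-/

namespace KTV

namespace JP

/-- the Johnson pair inequality with the sharp constant, in the form of the fibre transfer -/
theorem johnsonPairC_two (V : Type*) [DecidableEq V] : KTV.G26.JohnsonPairC V 2 := by
  intro J k g
  exact johnson_pair J k g

end JP

end KTV

namespace KTVG

/-- **Module M4 + M7**: the Johnson inequality on the fibres of a pair, for the graphs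
with a given degree vector. -/
theorem johnsonStmt_h12 (n : ℕ) (d : Fin n → ℕ) : JohnsonStmt n d :=
  KTV.G26.johnsonStmt d (KTV.JP.johnsonPairC_two (Fin n))

end KTVG
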