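import Vale.Agent.Helper26.KTV.Johnson

/-!
# Counting `k`-subsets with a prescribed pattern, and the separation indicator

Part (a) of the static half of the Johnson pair inequality (problem P335, module M4).
-/

namespace KTV

namespace JP

open Finset JD

section Count

variable {β : Type*} [DecidableEq β]

/-- the number of `k`-subsets of `J` which contain `I` and avoid `O` -/
theorem card_pattern (J I O : Finset β) (k : ℕ) (hI : I ⊆ J) (hO : O ⊆ J) (hd : Disjoint I O)
    (hk : I.card ≤ k) :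
    ((J.powersetCard k).filter (fun U => I ⊆ U ∧ Disjoint O U)).card
      = (J.card - I.card - O.card).choose (k - I.card) := by
  have h1 : ((J \ (I ∪ O)).powersetCard (k - I.card)).card
      = (J.card - I.card - O.card).choose (k - I.card) := by
    rw [card_powersetCard, card_sdiff_of_subset (union_subset hI hO), card_union_of_disjoint hd,
      Nat.sub_sub]
  rw [← h1]
  have hdisj : ∀ V : Finset β, V ⊆ J \ (I ∪ O) → Disjoint V I := by
    intro V hVJ
    rw [disjoint_left]
    intro x hx hxI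
    have := hVJ hx
    rw [mem_sdiff, mem_union] at this
    exact this.2 (Or.inl hxI)
  refine card_bij' (fun U _ => U \ I) (fun V _ => V ∪ I) ?_ ?_ ?_ ?_
  · intro U hU
    simp only [mem_filter, mem_powersetCard] at hU
    obtain ⟨⟨hUJ, hUc⟩, hIU, hOU⟩ := hU
    rw [mem_powersetCard]
    refine ⟨?_, ?_⟩
    · intro x hx
      rw [mem_sdiff] at hx ⊢
      refine ⟨hUJ hx.1, ?_⟩
      rw [mem_union]
      rintro (h | h)
      · exact hx.2 h
      · exact (disjoint_left.1 hOU h) hx.1
    · rw [card_sdiff_of_subset hIU, hUc]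
  · intro V hV
    rw [mem_powersetCard] at hV
    obtain ⟨hVJ, hVc⟩ := hV
    have hVI : Disjoint V I := hdisj V hVJ
    simp only [mem_filter, mem_powersetCard]
    refine ⟨⟨?_, ?_⟩, subset_union_right, ?_⟩
    · exact union_subset (hVJ.trans sdiff_subset) hI
    · rw [card_union_of_disjoint hVI, hVc]
      omega
    · rw [disjoint_left]
      intro x hxO hx
      rw [mem_union] at hx
      rcases hx with h | h
      · have := hVJ h
        rw [mem_sdiff, mem_union] at this
        exact this.2 (Or.inr hxO)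
      · exact (disjoint_left.1 hd h) hxO
  · intro U hU
    simp only [mem_filter, mem_powersetCard] at hU
    exact sdiff_union_of_subset hU.2.1
  · intro V hV
    rw [mem_powersetCard] at hV
    exact union_sdiff_cancel_right (hdisj V hV.1)

/-- the same count without the side condition on `k` -/
theorem card_pattern' (J I O : Finset β) (k : ℕ) (hI : I ⊆ J) (hO : O ⊆ J)
    (hd : Disjoint I O) :
    ((J.powersetCard k).filter (fun U => I ⊆ U ∧ Disjoint O U)).card
      = if I.card ≤ k then (J.card - I.card - O.card).choose (k - I.card) else 0 := by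
  by_cases hk : I.card ≤ k
  · rw [if_pos hk]
    exact card_pattern J I O k hI hO hd hk
  · rw [if_neg hk, card_eq_zero, filter_eq_empty_iff]
    intro U hU hcon
    rw [mem_powersetCard] at hU
    have := card_le_card hcon.1
    omega

/-- `sep U w z` is `1` if exactly one of `w`, `z` lies in `U`, and `0` otherwise -/
noncomputable def sep (U : Finset β) (w z : β) : ℝ :=
  if (w ∈ U ∧ z ∉ U) ∨ (w ∉ U ∧ z ∈ U) then 1 else 0

theorem sep_comm (U : Finset β) (w z : β) : sep U w z = sep U z w := by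
  unfold sep
  by_cases hw : w ∈ U <;> by_cases hz : z ∈ U <;> simp [hw, hz]

theorem sep_self (U : Finset β) (w : β) : sep U w w = 0 := by
  unfold sep
  by_cases hw : w ∈ U <;> simp [hw]

theorem sep_mul_self (U : Finset β) (w z : β) : sep U w z * sep U w z = sep U w z := by
  unfold sep
  by_cases hw : w ∈ U <;> by_cases hz : z ∈ U <;> simp [hw, hz]

theorem sep_nonneg (U : Finset β) (w z : β) : 0 ≤ sep U w z := by
  unfold sep
  split_ifs <;> norm_num

theorem sep_eq (U : Finset β) (w z : β) :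
    sep U w z = (if w ∈ U ∧ z ∉ U then (1 : ℝ) else 0) + (if z ∈ U ∧ w ∉ U then (1 : ℝ) else 0) := by
  unfold sep
  by_cases hw : w ∈ U <;> by_cases hz : z ∈ U <;> simp [hw, hz]

/-- two separated pairs with a common point -/
theorem sep_mul_share (U : Finset β) (w z z2 : β) :
    sep U w z * sep U w z2 = (sep U w z + sep U w z2 - sep U z z2) / 2 := by
  unfold sep
  by_cases hw : w ∈ U <;> by_cases hz : z ∈ U <;> by_cases hz2 : z2 ∈ U <;>
    simp [hw, hz, hz2]

/-- the number of `k`-subsets of `J` separating two given points, as a real number -/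
noncomputable def n1 (J : Finset β) (k : ℕ) : ℝ :=
  if 1 ≤ k then 2 * ((J.card - 2).choose (k - 1) : ℝ) else 0

/-- the number of `k`-subsets of `J` separating each of two given disjoint pairs -/
noncomputable def n0 (J : Finset β) (k : ℕ) : ℝ :=
  if 2 ≤ k ∧ 4 ≤ J.card then 4 * ((J.card - 4).choose (k - 2) : ℝ) else 0

theorem sum_in_out (J : Finset β) (k : ℕ) {w z : β} (hw : w ∈ J) (hz : z ∈ J) (hwz : w ≠ z) :
    ∑ U ∈ J.powersetCard k, (if w ∈ U ∧ z ∉ U then (1 : ℝ) else 0) = n1 J k / 2 := by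
  rw [sum_boole]
  have h := card_pattern' J {w} {z} k (singleton_subset_iff.2 hw) (singleton_subset_iff.2 hz)
    (disjoint_singleton.2 hwz)
  have e : (J.powersetCard k).filter (fun U => w ∈ U ∧ z ∉ U)
      = (J.powersetCard k).filter (fun U => {w} ⊆ U ∧ Disjoint {z} U) := by
    refine filter_congr (fun U _ => ?_)
    rw [singleton_subset_iff, disjoint_singleton_left]
  rw [e, h, card_singleton, card_singleton]
  unfold n1
  by_cases hk : 1 ≤ k
  · rw [if_pos hk, if_pos hk, Nat.sub_sub]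
    ring
  · rw [if_neg hk, if_neg hk]
    simp

theorem sum_sep (J : Finset β) (k : ℕ) {w z : β} (hw : w ∈ J) (hz : z ∈ J) (hwz : w ≠ z) :
    ∑ U ∈ J.powersetCard k, sep U w z = n1 J k := by
  simp_rw [sep_eq]
  rw [sum_add_distrib, sum_in_out J k hw hz hwz, sum_in_out J k hz hw (Ne.symm hwz)]
  ring

theorem sum_sep_share (J : Finset β) (k : ℕ) {w z z2 : β} (hw : w ∈ J) (hz : z ∈ J)
    (hz2 : z2 ∈ J) (hwz : w ≠ z) (hwz2 : w ≠ z2) (hzz2 : z ≠ z2) :
    ∑ U ∈ J.powersetCard k, sep U w z * sep U w z2 = n1 J k / 2 := by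
  simp_rw [sep_mul_share]
  rw [← sum_div, sum_sub_distrib, sum_add_distrib, sum_sep J k hw hz hwz,
    sum_sep J k hw hz2 hwz2, sum_sep J k hz hz2 hzz2]
  ring

theorem sum_two_two (J : Finset β) (k : ℕ) {a b c d : β} (ha : a ∈ J) (hb : b ∈ J)
    (hc : c ∈ J) (hd : d ∈ J) (hab : a ≠ b) (hac : a ≠ c) (had : a ≠ d) (hbc : b ≠ c)
    (hbd : b ≠ d) (hcd : c ≠ d) :
    ∑ U ∈ J.powersetCard k, (if (a ∈ U ∧ b ∈ U) ∧ (c ∉ U ∧ d ∉ U) then (1 : ℝ) else 0)
      = n0 J k / 4 := by
  rw [sum_boole]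
  have hI : ({a, b} : Finset β) ⊆ J := by
    intro x hx
    rw [mem_insert, mem_singleton] at hx
    rcases hx with rfl | rfl
    · exact ha
    · exact hb
  have hO : ({c, d} : Finset β) ⊆ J := by
    intro x hx
    rw [mem_insert, mem_singleton] at hx
    rcases hx with rfl | rfl
    · exact hc
    · exact hd
  have hdis : Disjoint ({a, b} : Finset β) {c, d} := by
    rw [disjoint_left]
    intro x hx hx'
    rw [mem_insert, mem_singleton] at hx hx'
    rcases hx with rfl | rfl <;> rcases hx' with h | h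
    · exact hac h
    · exact had h
    · exact hbc h
    · exact hbd h
  have h := card_pattern' J {a, b} {c, d} k hI hO hdis
  have e : (J.powersetCard k).filter (fun U => (a ∈ U ∧ b ∈ U) ∧ (c ∉ U ∧ d ∉ U))
      = (J.powersetCard k).filter (fun U => {a, b} ⊆ U ∧ Disjoint {c, d} U) := by
    refine filter_congr (fun U _ => ?_)
    rw [insert_subset_iff, singleton_subset_iff, disjoint_insert_left, disjoint_singleton_left]
  have h4 : 4 ≤ J.card := by
    have h5 := card_le_card (union_subset hI hO)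
    rw [card_union_of_disjoint hdis, card_pair hab, card_pair hcd] at h5
    exact h5
  rw [e, h, card_pair hab, card_pair hcd]
  unfold n0
  by_cases hk : 2 ≤ k
  · rw [if_pos hk, if_pos ⟨hk, h4⟩, Nat.sub_sub]
    ring
  · rw [if_neg hk, if_neg (fun hh => hk hh.1)]
    simp

theorem sep_mul_disj (U : Finset β) (w z w2 z2 : β) :
    sep U w z * sep U w2 z2
      = (if (w ∈ U ∧ w2 ∈ U) ∧ (z ∉ U ∧ z2 ∉ U) then (1 : ℝ) else 0)
        + (if (w ∈ U ∧ z2 ∈ U) ∧ (z ∉ U ∧ w2 ∉ U) then (1 : ℝ) else 0)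
        + (if (z ∈ U ∧ w2 ∈ U) ∧ (w ∉ U ∧ z2 ∉ U) then (1 : ℝ) else 0)
        + (if (z ∈ U ∧ z2 ∈ U) ∧ (w ∉ U ∧ w2 ∉ U) then (1 : ℝ) else 0) := by
  unfold sep
  by_cases hw : w ∈ U <;> by_cases hz : z ∈ U <;> by_cases hw2 : w2 ∈ U <;>
    by_cases hz2 : z2 ∈ U <;> simp [hw, hz, hw2, hz2]

theorem sum_sep_disj (J : Finset β) (k : ℕ) {w z w2 z2 : β} (hw : w ∈ J) (hz : z ∈ J)
    (hw2 : w2 ∈ J) (hz2 : z2 ∈ J) (hwz : w ≠ z) (hww2 : w ≠ w2) (hwz2 : w ≠ z2)
    (hzw2 : z ≠ w2) (hzz2 : z ≠ z2) (hw2z2 : w2 ≠ z2) :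
    ∑ U ∈ J.powersetCard k, sep U w z * sep U w2 z2 = n0 J k := by
  simp_rw [sep_mul_disj]
  rw [sum_add_distrib, sum_add_distrib, sum_add_distrib,
    sum_two_two J k hw hw2 hz hz2 hww2 hwz hwz2 (Ne.symm hzw2) hw2z2 hzz2,
    sum_two_two J k hw hz2 hz hw2 hwz2 hwz hww2 (Ne.symm hzz2) (Ne.symm hw2z2) hzw2,
    sum_two_two J k hz hw2 hw hz2 hzw2 (Ne.symm hwz) hzz2 (Ne.symm hww2) hw2z2 hwz2,
    sum_two_two J k hz hz2 hw hw2 hzz2 (Ne.symm hwz) hzw2 (Ne.symm hwz2) (Ne.symm hw2z2) hww2]
  ring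

end Count

end JP

end KTV
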