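import Vale.Agent.Helper12.KTVJ.Pair
import Vale.Agent.Helper29.KTV.JohnsonSharp

/-!
# The Johnson pair inequality (problem P335, module M4)

For a function `g` on the `k`-subsets of a finite set `J`: with `N` the number of `k`-subsets,
`T` the sum of `g`, `nO w z` the number of `k`-subsets separating `w` and `z` and `sO w z` the
sum of `g` over them,
`∑_{w ≠ z} nO w z * (sO w z / nO w z - T / N) ^ 2 ≤ jD / 2 - 2 * jV / N`
(ordered pairs; equality for `k = 1`).  The proof combines the sharp Johnson gap
`2 * |J| * jV ≤ N * jD` with the static bound of `Static.lean`.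
-/

namespace KTV

namespace JP

open Finset JD

variable {β : Type*} [DecidableEq β]

/-- **Johnson pair inequality.** -/
theorem johnson_pair (J : Finset β) (k : ℕ) (g : Finset β → ℝ) :
    ∑ w ∈ J, ∑ z ∈ J.erase w,
      (((J.powersetCard k).filter (fun U => (w ∈ U ∧ z ∉ U) ∨ (w ∉ U ∧ z ∈ U))).card : ℝ)
        * ((∑ U ∈ (J.powersetCard k).filter (fun U => (w ∈ U ∧ z ∉ U) ∨ (w ∉ U ∧ z ∈ U)), g U)
              / (((J.powersetCard k).filter
                  (fun U => (w ∈ U ∧ z ∉ U) ∨ (w ∉ U ∧ z ∈ U))).card : ℝ)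
            - (∑ U ∈ J.powersetCard k, g U) / ((J.powersetCard k).card : ℝ)) ^ 2
      ≤ (1 / 2) * jD J k g
        - 2 * jV (J.powersetCard k) g / ((J.powersetCard k).card : ℝ) :=
  johnson_pair_of_sharp J k g (johnson_sharp J k g)

end JP

end KTV
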