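import Vale.Agent.Helper12.KTVJ.Count

/-!
# Second moment of a cut weight over the `k`-subsets

Part (b) of the static half of the Johnson pair inequality (problem P335, module M4):
for a symmetric weight `c` with zero diagonal, the sum over the `k`-subsets `U` of `J` of the
square of `∑ c w z * sep U w z` is an explicit quadratic form in `c`, bounded by
`n1 * (|J| - 2) * ∑ c ^ 2` when the total weight is zero.
-/

set_option linter.unusedSectionVars false

namespace KTV

namespace JP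

open Finset JD

section Gram

variable {β : Type*} [DecidableEq β]

/-- Kronecker delta with real values -/
noncomputable def dl (a b : β) : ℝ := if a = b then 1 else 0

theorem dl_self (a : β) : dl a a = 1 := if_pos rfl

theorem dl_ne {a b : β} (h : a ≠ b) : dl a b = 0 := if_neg h

/-- the Gram matrix of the separation indicators -/
theorem gram_pattern (J : Finset β) (k : ℕ) {w z w2 z2 : β} (hw : w ∈ J) (hz : z ∈ J)
    (hw2 : w2 ∈ J) (hz2 : z2 ∈ J) (hwz : w ≠ z) (hw2z2 : w2 ≠ z2) :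
    ∑ U ∈ J.powersetCard k, sep U w z * sep U w2 z2
      = n1 J k / 2 * (dl w w2 + dl w z2 + dl z w2 + dl z z2)
        + n0 J k * (1 - dl w w2 - dl w z2 - dl z w2 - dl z z2
            + dl w w2 * dl z z2 + dl w z2 * dl z w2) := by
  by_cases h1 : w = w2
  · subst h1
    by_cases h2 : z = z2
    · subst h2
      simp_rw [sep_mul_self]
      rw [sum_sep J k hw hz hwz]
      simp only [dl_self, dl_ne hwz, dl_ne (Ne.symm hwz)]
      ring
    · rw [sum_sep_share J k hw hz hz2 hwz hw2z2 h2]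
      simp only [dl_self, dl_ne hw2z2, dl_ne (Ne.symm hwz), dl_ne h2]
      ring
  · by_cases h2 : w = z2
    · subst h2
      by_cases h3 : z = w2
      · subst h3
        have e : ∀ U : Finset β, sep U w z * sep U z w = sep U w z := by
          intro U
          rw [sep_comm U z w, sep_mul_self]
        simp_rw [e]
        rw [sum_sep J k hw hz hwz]
        simp only [dl_self, dl_ne hwz, dl_ne (Ne.symm hwz)]
        ring
      · have e : ∀ U : Finset β, sep U w z * sep U w2 w = sep U w z * sep U w w2 := by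
          intro U
          rw [sep_comm U w2 w]
        simp_rw [e]
        rw [sum_sep_share J k hw hz hw2 hwz h1 h3]
        simp only [dl_self, dl_ne h1, dl_ne h3, dl_ne (Ne.symm hwz)]
        ring
    · by_cases h3 : z = w2
      · subst h3
        have e : ∀ U : Finset β, sep U w z * sep U z z2 = sep U z w * sep U z z2 := by
          intro U
          rw [sep_comm U w z]
        simp_rw [e]
        rw [sum_sep_share J k hz hw hz2 (Ne.symm hwz) hw2z2 h2]
        simp only [dl_self, dl_ne hwz, dl_ne h2, dl_ne hw2z2]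
        ring
      · by_cases h4 : z = z2
        · subst h4
          have e : ∀ U : Finset β, sep U w z * sep U w2 z = sep U z w * sep U z w2 := by
            intro U
            rw [sep_comm U w z, sep_comm U w2 z]
          simp_rw [e]
          rw [sum_sep_share J k hz hw hw2 (Ne.symm hwz) h3 h1]
          simp only [dl_self, dl_ne h1, dl_ne hwz, dl_ne h3]
          ring
        · rw [sum_sep_disj J k hw hz hw2 hz2 hwz h1 h2 h3 h4 hw2z2]
          simp only [dl_ne h1, dl_ne h2, dl_ne h3, dl_ne h4]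
          ring

theorem sum_dl_left (J : Finset β) (F : β → β → ℝ) {p : β} (hp : p ∈ J) :
    ∑ w ∈ J, ∑ z ∈ J, F w z * dl w p = ∑ z ∈ J, F p z := by
  rw [sum_eq_single_of_mem p hp]
  · refine sum_congr rfl (fun z _ => ?_)
    rw [dl_self, mul_one]
  · intro w _ hwp
    refine sum_eq_zero (fun z _ => ?_)
    rw [dl_ne hwp, mul_zero]

theorem sum_dl_right (J : Finset β) (F : β → β → ℝ) {p : β} (hp : p ∈ J) :
    ∑ w ∈ J, ∑ z ∈ J, F w z * dl z p = ∑ w ∈ J, F w p := by
  refine sum_congr rfl (fun w _ => ?_)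
  rw [sum_eq_single_of_mem p hp]
  · rw [dl_self, mul_one]
  · intro z _ hzp
    rw [dl_ne hzp, mul_zero]

theorem sum_dl_both (J : Finset β) (F : β → β → ℝ) {p q : β} (hp : p ∈ J) (hq : q ∈ J) :
    ∑ w ∈ J, ∑ z ∈ J, F w z * (dl w p * dl z q) = F p q := by
  rw [sum_eq_single_of_mem p hp]
  · rw [sum_eq_single_of_mem q hq]
    · rw [dl_self, dl_self, mul_one, mul_one]
    · intro z _ hzq
      rw [dl_ne hzq, mul_zero, mul_zero]
  · intro w _ hwp
    refine sum_eq_zero (fun z _ => ?_)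
    rw [dl_ne hwp, zero_mul, mul_zero]

/-- row sums of a weight on `J × J` -/
noncomputable def rsum (J : Finset β) (c : β → β → ℝ) (w : β) : ℝ := ∑ z ∈ J, c w z

/-- the total weight of the ordered pairs of `J` separated by `U` -/
noncomputable def cutw (J : Finset β) (c : β → β → ℝ) (U : Finset β) : ℝ :=
  ∑ w ∈ J, ∑ z ∈ J, c w z * sep U w z

theorem cutw_sep (J : Finset β) (k : ℕ) (c : β → β → ℝ) (hsym : ∀ w z, c w z = c z w)
    (hdiag : ∀ w, c w w = 0) {p q : β} (hp : p ∈ J) (hq : q ∈ J) (hpq : p ≠ q) :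
    ∑ U ∈ J.powersetCard k, cutw J c U * sep U p q
      = (n1 J k - 2 * n0 J k) * (rsum J c p + rsum J c q)
        + n0 J k * (∑ w ∈ J, ∑ z ∈ J, c w z) + 2 * n0 J k * c p q := by
  have key : ∀ w ∈ J, ∀ z ∈ J, c w z * (∑ U ∈ J.powersetCard k, sep U w z * sep U p q)
      = n1 J k / 2 * (c w z * dl w p) + n1 J k / 2 * (c w z * dl w q)
        + n1 J k / 2 * (c w z * dl z p) + n1 J k / 2 * (c w z * dl z q)
        + n0 J k * c w z - n0 J k * (c w z * dl w p) - n0 J k * (c w z * dl w q)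
        - n0 J k * (c w z * dl z p) - n0 J k * (c w z * dl z q)
        + n0 J k * (c w z * (dl w p * dl z q)) + n0 J k * (c w z * (dl w q * dl z p)) := by
    intro w hw z hz
    by_cases hwz : w = z
    · subst hwz
      rw [hdiag w]
      ring
    · rw [gram_pattern J k hw hz hp hq hwz hpq]
      ring
  have e1 : ∑ U ∈ J.powersetCard k, cutw J c U * sep U p q
      = ∑ w ∈ J, ∑ z ∈ J, c w z * (∑ U ∈ J.powersetCard k, sep U w z * sep U p q) := by
    unfold cutw
    simp_rw [sum_mul, mul_sum]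
    rw [sum_comm]
    refine sum_congr rfl (fun w _ => ?_)
    rw [sum_comm]
    refine sum_congr rfl (fun z _ => sum_congr rfl (fun U _ => ?_))
    ring
  rw [e1, sum_congr rfl (fun w hw => sum_congr rfl (fun z hz => key w hw z hz))]
  simp only [sum_add_distrib, sum_sub_distrib, ← mul_sum]
  rw [sum_dl_left J c hp, sum_dl_left J c hq, sum_dl_right J c hp, sum_dl_right J c hq,
    sum_dl_both J c hp hq, sum_dl_both J c hq hp]
  have e2 : ∀ x, ∑ w ∈ J, c w x = ∑ z ∈ J, c x z := by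
    intro x
    exact sum_congr rfl (fun w _ => hsym w x)
  rw [e2 p, e2 q, hsym q p]
  unfold rsum
  ring

/-- the second moment of the cut weight -/
theorem gram_formula (J : Finset β) (k : ℕ) (c : β → β → ℝ) (hsym : ∀ w z, c w z = c z w)
    (hdiag : ∀ w, c w w = 0) :
    ∑ U ∈ J.powersetCard k, cutw J c U ^ 2
      = 2 * (n1 J k - 2 * n0 J k) * (∑ w ∈ J, rsum J c w ^ 2)
        + n0 J k * (∑ w ∈ J, ∑ z ∈ J, c w z) ^ 2
        + 2 * n0 J k * (∑ w ∈ J, ∑ z ∈ J, c w z ^ 2) := by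
  have e0 : ∀ U : Finset β, cutw J c U ^ 2
      = ∑ p ∈ J, ∑ q ∈ J, c p q * (cutw J c U * sep U p q) := by
    intro U
    have h : cutw J c U = ∑ p ∈ J, ∑ q ∈ J, c p q * sep U p q := rfl
    rw [sq]
    nth_rewrite 2 [h]
    rw [mul_sum]
    refine sum_congr rfl (fun p _ => ?_)
    rw [mul_sum]
    refine sum_congr rfl (fun q _ => ?_)
    ring
  have e1 : ∑ U ∈ J.powersetCard k, cutw J c U ^ 2
      = ∑ p ∈ J, ∑ q ∈ J, c p q * (∑ U ∈ J.powersetCard k, cutw J c U * sep U p q) := by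
    simp_rw [e0]
    rw [sum_comm]
    refine sum_congr rfl (fun p _ => ?_)
    rw [sum_comm]
    refine sum_congr rfl (fun q _ => ?_)
    rw [mul_sum]
  have key : ∀ p ∈ J, ∀ q ∈ J, c p q * (∑ U ∈ J.powersetCard k, cutw J c U * sep U p q)
      = (n1 J k - 2 * n0 J k) * (c p q * rsum J c p)
        + (n1 J k - 2 * n0 J k) * (c p q * rsum J c q)
        + n0 J k * (∑ w ∈ J, ∑ z ∈ J, c w z) * c p q + 2 * n0 J k * c p q ^ 2 := by
    intro p hp q hq
    by_cases hpq : p = q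
    · subst hpq
      rw [hdiag p]
      ring
    · rw [cutw_sep J k c hsym hdiag hp hq hpq]
      ring
  rw [e1, sum_congr rfl (fun p hp => sum_congr rfl (fun q hq => key p hp q hq))]
  simp only [sum_add_distrib, ← mul_sum]
  have b4 : ∑ p ∈ J, ∑ q ∈ J, c p q * rsum J c p = ∑ w ∈ J, rsum J c w ^ 2 := by
    refine sum_congr rfl (fun p _ => ?_)
    rw [← sum_mul, sq]
    rfl
  have b5 : ∑ p ∈ J, ∑ q ∈ J, c p q * rsum J c q = ∑ w ∈ J, rsum J c w ^ 2 := by
    rw [sum_comm]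
    refine sum_congr rfl (fun q _ => ?_)
    rw [← sum_mul, sq]
    congr 1
    exact sum_congr rfl (fun p _ => hsym p q)
  rw [b4, b5]
  ring

/-- the sum of the squares of the row sums is controlled by the sum of the squares of the
entries when the total weight vanishes -/
theorem rsum_sq_le (J : Finset β) (c : β → β → ℝ) (hsym : ∀ w z, c w z = c z w)
    (hdiag : ∀ w, c w w = 0) (hsum : ∑ w ∈ J, ∑ z ∈ J, c w z = 0) (hm : 3 ≤ J.card) :
    2 * ∑ w ∈ J, rsum J c w ^ 2 ≤ ((J.card : ℝ) - 2) * ∑ w ∈ J, ∑ z ∈ J, c w z ^ 2 := by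
  have hm' : (3 : ℝ) ≤ (J.card : ℝ) := by exact_mod_cast hm
  have hX : ∀ w ∈ J, (2 * rsum J c w) ^ 2
      ≤ ∑ z ∈ J, (((J.card : ℝ) - 2) * c w z - rsum J c w - rsum J c z) ^ 2 := by
    intro w hw
    have h1 := single_le_sum (f := fun z => (((J.card : ℝ) - 2) * c w z - rsum J c w
      - rsum J c z) ^ 2) (fun z _ => sq_nonneg _) hw
    have h2 : (2 * rsum J c w) ^ 2
        = (((J.card : ℝ) - 2) * c w w - rsum J c w - rsum J c w) ^ 2 := by
      rw [hdiag w]
      ring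
    rw [h2]
    exact h1
  have hZ := sum_le_sum hX
  have eX : ∀ w z, (((J.card : ℝ) - 2) * c w z - rsum J c w - rsum J c z) ^ 2
      = ((J.card : ℝ) - 2) ^ 2 * c w z ^ 2 + rsum J c w ^ 2 + rsum J c z ^ 2
        + 2 * (rsum J c w * rsum J c z) - 2 * ((J.card : ℝ) - 2) * (c w z * rsum J c w)
        - 2 * ((J.card : ℝ) - 2) * (c w z * rsum J c z) := by
    intro w z
    ring
  simp_rw [eX] at hZ
  simp only [sum_add_distrib, sum_sub_distrib, ← mul_sum] at hZ
  have b1 : ∑ w ∈ J, ∑ _z ∈ J, rsum J c w ^ 2 = (J.card : ℝ) * ∑ w ∈ J, rsum J c w ^ 2 := by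
    rw [mul_sum]
    refine sum_congr rfl (fun w _ => ?_)
    rw [sum_const, nsmul_eq_mul]
  have b2 : ∑ _w ∈ J, ∑ z ∈ J, rsum J c z ^ 2 = (J.card : ℝ) * ∑ w ∈ J, rsum J c w ^ 2 := by
    rw [sum_const, nsmul_eq_mul]
  have b3 : ∑ w ∈ J, rsum J c w * ∑ z ∈ J, rsum J c z = 0 := by
    have h0 : ∑ z ∈ J, rsum J c z = 0 := hsum
    rw [h0]
    simp
  have b4 : ∑ p ∈ J, ∑ q ∈ J, c p q * rsum J c p = ∑ w ∈ J, rsum J c w ^ 2 := by
    refine sum_congr rfl (fun p _ => ?_)
    rw [← sum_mul, sq]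
    rfl
  have b5 : ∑ p ∈ J, ∑ q ∈ J, c p q * rsum J c q = ∑ w ∈ J, rsum J c w ^ 2 := by
    rw [sum_comm]
    refine sum_congr rfl (fun q _ => ?_)
    rw [← sum_mul, sq]
    congr 1
    exact sum_congr rfl (fun p _ => hsym p q)
  rw [b1, b2, b3, b4, b5] at hZ
  have e4 : ∑ w ∈ J, (2 * rsum J c w) ^ 2 = 4 * ∑ w ∈ J, rsum J c w ^ 2 := by
    rw [mul_sum]
    refine sum_congr rfl (fun w _ => ?_)
    ring
  rw [e4] at hZ
  have h5 : 0 ≤ ((J.card : ℝ) - 2) * (((J.card : ℝ) - 2) * (∑ w ∈ J, ∑ z ∈ J, c w z ^ 2)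
      - 2 * ∑ w ∈ J, rsum J c w ^ 2) := by
    nlinarith
  have h6 : (0 : ℝ) < (J.card : ℝ) - 2 := by linarith
  have h7 := nonneg_of_mul_nonneg_right h5 h6
  linarith

theorem rsum_zero_of_card_two (J : Finset β) (c : β → β → ℝ) (hsym : ∀ w z, c w z = c z w)
    (hdiag : ∀ w, c w w = 0) (hsum : ∑ w ∈ J, ∑ z ∈ J, c w z = 0) (hm : J.card = 2) :
    ∑ w ∈ J, rsum J c w ^ 2 = 0 := by
  obtain ⟨a, b, hab, rfl⟩ := card_eq_two.1 hm
  unfold rsum
  rw [sum_pair hab, sum_pair hab, sum_pair hab] at hsum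
  rw [sum_pair hab, sum_pair hab, sum_pair hab]
  rw [hdiag a, hdiag b, hsym b a] at hsum
  rw [hdiag a, hdiag b, hsym b a]
  have h : c a b = 0 := by linarith
  rw [h]
  ring

theorem n1_nonneg (J : Finset β) (k : ℕ) : 0 ≤ n1 J k := by
  unfold n1
  split_ifs
  · positivity
  · exact le_rfl

theorem n0_nonneg (J : Finset β) (k : ℕ) : 0 ≤ n0 J k := by
  unfold n0
  split_ifs
  · positivity
  · exact le_rfl

theorem n0_le_n1 (J : Finset β) (k : ℕ) : n0 J k ≤ n1 J k := by
  unfold n0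
  by_cases h : 2 ≤ k ∧ 4 ≤ J.card
  · rw [if_pos h]
    unfold n1
    rw [if_pos (by omega : 1 ≤ k)]
    obtain ⟨κ, hκ⟩ : ∃ κ, k = κ + 2 := ⟨k - 2, by omega⟩
    obtain ⟨μ, hμ⟩ : ∃ μ, J.card = μ + 4 := ⟨J.card - 4, by omega⟩
    rw [hκ, hμ]
    have e1 : μ + 4 - 4 = μ := by omega
    have e2 : κ + 2 - 2 = κ := by omega
    have e3 : μ + 4 - 2 = μ + 2 := by omega
    have e4 : κ + 2 - 1 = κ + 1 := by omega
    rw [e1, e2, e3, e4]
    have h1 : (μ + 2).choose (κ + 1) = (μ + 1).choose κ + (μ + 1).choose (κ + 1) :=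
      Nat.choose_succ_succ _ _
    have h2 : (μ + 1).choose (κ + 1) = μ.choose κ + μ.choose (κ + 1) :=
      Nat.choose_succ_succ _ _
    have h3 : μ.choose κ ≤ (μ + 1).choose κ := Nat.choose_le_choose κ (Nat.le_succ μ)
    have h4 : 2 * μ.choose κ ≤ (μ + 2).choose (κ + 1) := by omega
    have h5 : (2 : ℝ) * (μ.choose κ : ℝ) ≤ ((μ + 2).choose (κ + 1) : ℝ) := by exact_mod_cast h4
    linarith
  · rw [if_neg h]
    exact n1_nonneg J k

theorem n0_eq_zero_of_card_lt (J : Finset β) (k : ℕ) (hm : J.card < 4) : n0 J k = 0 := by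
  unfold n0
  rw [if_neg]
  omega

/-- the static bound: second moment of a cut weight of total weight zero -/
theorem cutw_sq_le (J : Finset β) (k : ℕ) (c : β → β → ℝ) (hsym : ∀ w z, c w z = c z w)
    (hdiag : ∀ w, c w w = 0) (hsum : ∑ w ∈ J, ∑ z ∈ J, c w z = 0) (hm : 2 ≤ J.card) :
    ∑ U ∈ J.powersetCard k, cutw J c U ^ 2
      ≤ n1 J k * ((J.card : ℝ) - 2) * ∑ w ∈ J, ∑ z ∈ J, c w z ^ 2 := by
  rw [gram_formula J k c hsym hdiag, hsum]
  have hn1 := n1_nonneg J k
  have hn0 := n0_nonneg J k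
  have hn01 := n0_le_n1 J k
  have hW : 0 ≤ ∑ w ∈ J, ∑ z ∈ J, c w z ^ 2 :=
    sum_nonneg (fun w _ => sum_nonneg (fun z _ => sq_nonneg _))
  have hR : 0 ≤ ∑ w ∈ J, rsum J c w ^ 2 := sum_nonneg (fun w _ => sq_nonneg _)
  rcases Nat.lt_or_ge J.card 3 with h3 | h3
  · have h2 : J.card = 2 := by omega
    rw [rsum_zero_of_card_two J c hsym hdiag hsum h2, n0_eq_zero_of_card_lt J k (by omega), h2]
    norm_num
  · have hRW := rsum_sq_le J c hsym hdiag hsum h3
    have hm3 : (3 : ℝ) ≤ (J.card : ℝ) := by exact_mod_cast h3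
    rcases Nat.lt_or_ge J.card 4 with h4 | h4
    · rw [n0_eq_zero_of_card_lt J k h4]
      nlinarith [mul_le_mul_of_nonneg_left hRW hn1]
    · have hm4 : (4 : ℝ) ≤ (J.card : ℝ) := by exact_mod_cast h4
      by_cases h : 2 * n0 J k ≤ n1 J k
      · have h8 := mul_le_mul_of_nonneg_left hRW (sub_nonneg.2 h)
        have h9 : 0 ≤ n0 J k * (((J.card : ℝ) - 3) * ∑ w ∈ J, ∑ z ∈ J, c w z ^ 2) :=
          mul_nonneg hn0 (mul_nonneg (by linarith) hW)
        nlinarith
      · have h8 : (n1 J k - 2 * n0 J k) * (∑ w ∈ J, rsum J c w ^ 2) ≤ 0 :=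
          mul_nonpos_of_nonpos_of_nonneg (by linarith) hR
        have h9 : 0 ≤ (n1 J k - n0 J k) * (∑ w ∈ J, ∑ z ∈ J, c w z ^ 2) :=
          mul_nonneg (by linarith) hW
        have h10 : 0 ≤ n1 J k * (((J.card : ℝ) - 4) * ∑ w ∈ J, ∑ z ∈ J, c w z ^ 2) :=
          mul_nonneg hn1 (mul_nonneg (by linarith) hW)
        nlinarith

end Gram

end JP

end KTV
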