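import Vale.Agent.Helper12.KTVJ.Static

/-!
# The Johnson pair inequality from the sharp Johnson gap

Part (d) of the static half of the Johnson pair inequality (problem P335, module M4):
the sharp Poincare inequality `2 * |J| * jV ≤ N * jD` on the `k`-subsets of `J` and the static
bound give the pair inequality
`∑_{w ≠ z} nO w z * (sO w z / nO w z - T / N) ^ 2 ≤ jD / 2 - 2 * jV / N`.
-/

set_option linter.unusedSectionVars false

namespace KTV

namespace JP

open Finset JD

section Pair

variable {β : Type*} [DecidableEq β]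

theorem half_jD_sub_nonneg (J : Finset β) (k : ℕ) (g : Finset β → ℝ) :
    0 ≤ (1 / 2) * jD J k g
      - 2 * jV (J.powersetCard k) g / ((J.powersetCard k).card : ℝ) := by
  have h := johnson_abs J k g
  have hD := jD_nonneg J k g
  rcases (Nat.cast_nonneg (J.powersetCard k).card : (0 : ℝ) ≤ _).lt_or_eq with hpos | hzero
  · have h1 : 2 * jV (J.powersetCard k) g / ((J.powersetCard k).card : ℝ)
        ≤ (1 / 2) * jD J k g := by
      rw [div_le_iff₀ hpos]
      linarith
    linarith
  · rw [← hzero, div_zero]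
    linarith

/-- the number of `k`-subsets separating two distinct points of `J` -/
theorem card_sep (J : Finset β) (k : ℕ) {w z : β} (hw : w ∈ J) (hz : z ∈ J) (hwz : w ≠ z) :
    (((J.powersetCard k).filter (fun U => (w ∈ U ∧ z ∉ U) ∨ (w ∉ U ∧ z ∈ U))).card : ℝ)
      = n1 J k := by
  rw [← sum_sep J k hw hz hwz]
  unfold sep
  rw [sum_boole]

/-- the sum of `g` over the `k`-subsets separating two points -/
theorem sum_filter_sep (P : Finset (Finset β)) (g : Finset β → ℝ) (w z : β) :
    ∑ U ∈ P.filter (fun U => (w ∈ U ∧ z ∉ U) ∨ (w ∉ U ∧ z ∈ U)), g U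
      = ∑ U ∈ P, sep U w z * g U := by
  rw [sum_filter]
  refine sum_congr rfl (fun U _ => ?_)
  unfold sep
  split_ifs <;> simp

/-- **Johnson pair inequality, from the sharp Johnson gap.**  `nO w z` is the number of
`k`-subsets of `J` separating `w` and `z`, `sO w z` the sum of `g` over them. -/
theorem johnson_pair_of_sharp (J : Finset β) (k : ℕ) (g : Finset β → ℝ)
    (hsharp : 2 * (J.card : ℝ) * jV (J.powersetCard k) g
      ≤ ((J.powersetCard k).card : ℝ) * jD J k g) :
    ∑ w ∈ J, ∑ z ∈ J.erase w,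
      (((J.powersetCard k).filter (fun U => (w ∈ U ∧ z ∉ U) ∨ (w ∉ U ∧ z ∈ U))).card : ℝ)
        * ((∑ U ∈ (J.powersetCard k).filter (fun U => (w ∈ U ∧ z ∉ U) ∨ (w ∉ U ∧ z ∈ U)), g U)
              / (((J.powersetCard k).filter
                  (fun U => (w ∈ U ∧ z ∉ U) ∨ (w ∉ U ∧ z ∈ U))).card : ℝ)
            - (∑ U ∈ J.powersetCard k, g U) / ((J.powersetCard k).card : ℝ)) ^ 2
      ≤ (1 / 2) * jD J k g
        - 2 * jV (J.powersetCard k) g / ((J.powersetCard k).card : ℝ) := by
  have hrhs := half_jD_sub_nonneg J k g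
  have hterm : ∀ w ∈ J, ∀ z ∈ J.erase w,
      (((J.powersetCard k).filter (fun U => (w ∈ U ∧ z ∉ U) ∨ (w ∉ U ∧ z ∈ U))).card : ℝ)
        * ((∑ U ∈ (J.powersetCard k).filter (fun U => (w ∈ U ∧ z ∉ U) ∨ (w ∉ U ∧ z ∈ U)), g U)
              / (((J.powersetCard k).filter
                  (fun U => (w ∈ U ∧ z ∉ U) ∨ (w ∉ U ∧ z ∈ U))).card : ℝ)
            - (∑ U ∈ J.powersetCard k, g U) / ((J.powersetCard k).card : ℝ)) ^ 2
      = n1 J k * ((∑ U ∈ J.powersetCard k, sep U w z * g U) / n1 J k
            - (∑ U ∈ J.powersetCard k, g U) / ((J.powersetCard k).card : ℝ)) ^ 2 := by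
    intro w hw z hz
    rw [card_sep J k hw (mem_of_mem_erase hz) (Ne.symm (ne_of_mem_erase hz)), sum_filter_sep]
  rw [sum_congr rfl (fun w hw => sum_congr rfl (fun z hz => hterm w hw z hz))]
  by_cases hn : n1 J k = 0
  · have h0 : ∑ w ∈ J, ∑ z ∈ J.erase w,
        n1 J k * ((∑ U ∈ J.powersetCard k, sep U w z * g U) / n1 J k
            - (∑ U ∈ J.powersetCard k, g U) / ((J.powersetCard k).card : ℝ)) ^ 2 = 0 := by
      refine sum_eq_zero (fun w _ => sum_eq_zero (fun z _ => ?_))
      rw [hn, zero_mul]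
    rw [h0]
    exact hrhs
  · have hn1pos : 0 < n1 J k := lt_of_le_of_ne (n1_nonneg J k) (Ne.symm hn)
    by_cases hm : 2 ≤ J.card
    · obtain ⟨a, ha, b, hb, hab⟩ := one_lt_card.1 (by omega : 1 < J.card)
      have hNpos : (0 : ℝ) < ((J.powersetCard k).card : ℝ) := by
        rw [Nat.cast_pos, card_pos]
        by_contra hemp
        rw [not_nonempty_iff_eq_empty] at hemp
        have h1 := sum_sep J k ha hb hab
        rw [hemp, sum_empty] at h1
        exact hn h1.symm
      have hsb := static_bound J k g hm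
      have hterm2 : ∀ w z : β,
          n1 J k * ((∑ U ∈ J.powersetCard k, sep U w z * g U) / n1 J k
            - (∑ U ∈ J.powersetCard k, g U) / ((J.powersetCard k).card : ℝ)) ^ 2
          = (((J.powersetCard k).card : ℝ) * (∑ U ∈ J.powersetCard k, sep U w z * g U)
              - n1 J k * ∑ U ∈ J.powersetCard k, g U) ^ 2
            / (n1 J k * ((J.powersetCard k).card : ℝ) ^ 2) := by
        intro w z
        field_simp
      simp_rw [hterm2, ← sum_div]
      rw [div_le_iff₀ (by positivity)]
      have e : ((1 / 2) * jD J k g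
            - 2 * jV (J.powersetCard k) g / ((J.powersetCard k).card : ℝ))
            * (n1 J k * ((J.powersetCard k).card : ℝ) ^ 2)
          = n1 J k * ((J.powersetCard k).card : ℝ)
            * (((J.powersetCard k).card : ℝ) * jD J k g / 2 - 2 * jV (J.powersetCard k) g) := by
        field_simp
      rw [e]
      have h2 : ((J.card : ℝ) - 2) * jV (J.powersetCard k) g
          ≤ ((J.powersetCard k).card : ℝ) * jD J k g / 2 - 2 * jV (J.powersetCard k) g := by
        linarith
      have h3 := mul_le_mul_of_nonneg_left h2 (mul_nonneg hn1pos.le hNpos.le)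
      linarith
    · have hemp : ∀ w ∈ J, J.erase w = ∅ := by
        intro w hw
        rw [← card_eq_zero, card_erase_of_mem hw]
        omega
      have h0 : ∑ w ∈ J, ∑ z ∈ J.erase w,
          n1 J k * ((∑ U ∈ J.powersetCard k, sep U w z * g U) / n1 J k
              - (∑ U ∈ J.powersetCard k, g U) / ((J.powersetCard k).card : ℝ)) ^ 2 = 0 := by
        refine sum_eq_zero (fun w hw => ?_)
        rw [hemp w hw, sum_empty]
      rw [h0]
      exact hrhs

end Pair

end JP

end KTV
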