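import Vale.Agent.Helper12.KTVJ.Gram

/-!
# The static bound for the separation statistics of a function on the `k`-subsets

Part (c) of the static half of the Johnson pair inequality (problem P335, module M4):
the centred sums of `g` over the `k`-subsets separating `w` and `z` satisfy
`∑_{w ≠ z} (N * sO w z - n1 * T) ^ 2 ≤ N * n1 * (|J| - 2) * jV`.
-/

set_option linter.unusedSectionVars false

namespace KTV

namespace JP

open Finset JD

section Static

variable {β : Type*} [DecidableEq β]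

/-- every `k`-subset `U` of `J` separates `2 * |U| * (|J| - |U|)` ordered pairs -/
theorem sum_sep_all (J U : Finset β) (hU : U ⊆ J) :
    ∑ w ∈ J, ∑ z ∈ J, sep U w z = 2 * (U.card : ℝ) * ((J.card : ℝ) - (U.card : ℝ)) := by
  have h1 : ∑ w ∈ J, (if w ∈ U then (1 : ℝ) else 0) = (U.card : ℝ) := by
    rw [sum_boole, filter_mem_eq_inter, inter_eq_right.2 hU]
  have h2 : ∑ z ∈ J, (if z ∉ U then (1 : ℝ) else 0) = (J.card : ℝ) - (U.card : ℝ) := by
    rw [sum_boole, filter_notMem_eq_sdiff, card_sdiff_of_subset hU, Nat.cast_sub (card_le_card hU)]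
  have h3 : ∀ w z : β, sep U w z
      = (if w ∈ U then (1 : ℝ) else 0) * (if z ∉ U then (1 : ℝ) else 0)
        + (if w ∉ U then (1 : ℝ) else 0) * (if z ∈ U then (1 : ℝ) else 0) := by
    intro w z
    unfold sep
    by_cases hw : w ∈ U <;> by_cases hz : z ∈ U <;> simp [hw, hz]
  simp_rw [h3]
  simp only [sum_add_distrib]
  rw [← sum_mul_sum, ← sum_mul_sum, h1, h2]
  ring

/-- sums of squares of deviations are nonnegative -/
theorem jV_nonneg {X : Type*} (P : Finset X) (g : X → ℝ) : 0 ≤ jV P g := by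
  unfold jV
  have := sq_sum_le_card_mul_sum_sq (s := P) (f := g)
  linarith

/-- the static bound -/
theorem static_bound (J : Finset β) (k : ℕ) (g : Finset β → ℝ) (hm : 2 ≤ J.card) :
    ∑ w ∈ J, ∑ z ∈ J.erase w,
        (((J.powersetCard k).card : ℝ) * (∑ U ∈ J.powersetCard k, sep U w z * g U)
          - n1 J k * ∑ U ∈ J.powersetCard k, g U) ^ 2
      ≤ ((J.powersetCard k).card : ℝ) * n1 J k * ((J.card : ℝ) - 2)
          * jV (J.powersetCard k) g := by
  classical
  set P := J.powersetCard k with hP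
  set N : ℝ := (P.card : ℝ) with hN
  set T : ℝ := ∑ U ∈ P, g U with hT
  set c : β → β → ℝ := fun w z =>
    if w = z then 0 else N * (∑ U ∈ P, sep U w z * g U) - n1 J k * T with hc
  have hm' : (2 : ℝ) ≤ (J.card : ℝ) := by exact_mod_cast hm
  have hcne : ∀ w z, w ≠ z → c w z = N * (∑ U ∈ P, sep U w z * g U) - n1 J k * T := by
    intro w z hwz
    simp only [hc]
    rw [if_neg hwz]
  have hdiag : ∀ w, c w w = 0 := by
    intro w
    simp [hc]
  have hsym : ∀ w z, c w z = c z w := by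
    intro w z
    by_cases hwz : w = z
    · rw [hwz]
    · rw [hcne w z hwz, hcne z w (Ne.symm hwz)]
      simp_rw [sep_comm _ w z]
  -- the left-hand side is the sum of the squares of `c`
  have hL : ∑ w ∈ J, ∑ z ∈ J.erase w, (N * (∑ U ∈ P, sep U w z * g U) - n1 J k * T) ^ 2
      = ∑ w ∈ J, ∑ z ∈ J, c w z ^ 2 := by
    refine sum_congr rfl (fun w _ => ?_)
    rw [← sum_erase J (f := fun z => c w z ^ 2) (a := w) (by simp [hdiag w])]
    refine sum_congr rfl (fun z hz => ?_)
    rw [hcne w z (Ne.symm (ne_of_mem_erase hz))]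
  rw [hL]
  -- uniform formula for `c`
  have hcf : ∀ w z, c w z = N * (∑ U ∈ P, sep U w z * g U) - n1 J k * T * (1 - dl w z) := by
    intro w z
    by_cases hwz : w = z
    · subst hwz
      rw [hdiag w, dl_self]
      simp [sep_self]
    · rw [hcne w z hwz, dl_ne hwz]
      ring
  have hUk : ∀ U ∈ P, (U.card : ℝ) = (k : ℝ) := by
    intro U hU
    rw [hP, mem_powersetCard] at hU
    rw [hU.2]
  have hUJ : ∀ U ∈ P, U ⊆ J := by
    intro U hU
    rw [hP, mem_powersetCard] at hU
    exact hU.1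
  -- sum of `1 - dl` over `J × J`
  have hdd : ∑ w ∈ J, ∑ z ∈ J, (1 - dl w z) = (J.card : ℝ) * (J.card : ℝ) - (J.card : ℝ) := by
    have h1 : ∀ w ∈ J, ∑ z ∈ J, (1 - dl w z) = (J.card : ℝ) - 1 := by
      intro w hw
      rw [sum_sub_distrib, sum_const, nsmul_eq_mul, mul_one]
      congr 1
      rw [sum_eq_single_of_mem w hw]
      · exact dl_self w
      · intro z _ hz
        exact dl_ne (Ne.symm hz)
    rw [sum_congr rfl h1, sum_const, nsmul_eq_mul]
    ring
  -- the number of separated pairs, counted in two ways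
  have hcount : N * (2 * (k : ℝ) * ((J.card : ℝ) - (k : ℝ)))
      = n1 J k * ((J.card : ℝ) * (J.card : ℝ) - (J.card : ℝ)) := by
    have h1 : ∑ U ∈ P, ∑ w ∈ J, ∑ z ∈ J, sep U w z
        = N * (2 * (k : ℝ) * ((J.card : ℝ) - (k : ℝ))) := by
      have h2 : ∀ U ∈ P, ∑ w ∈ J, ∑ z ∈ J, sep U w z
          = 2 * (k : ℝ) * ((J.card : ℝ) - (k : ℝ)) := by
        intro U hU
        rw [sum_sep_all J U (hUJ U hU), hUk U hU]
      rw [sum_congr rfl h2, sum_const, nsmul_eq_mul]
    have h3 : ∑ U ∈ P, ∑ w ∈ J, ∑ z ∈ J, sep U w z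
        = n1 J k * ((J.card : ℝ) * (J.card : ℝ) - (J.card : ℝ)) := by
      rw [sum_comm]
      have h4 : ∀ w ∈ J, ∑ U ∈ P, ∑ z ∈ J, sep U w z = ∑ z ∈ J, n1 J k * (1 - dl w z) := by
        intro w hw
        rw [sum_comm]
        refine sum_congr rfl (fun z hz => ?_)
        by_cases hwz : w = z
        · subst hwz
          rw [dl_self]
          simp [sep_self]
        · rw [sum_sep J k hw hz hwz, dl_ne hwz]
          ring
      rw [sum_congr rfl h4]
      simp_rw [← mul_sum]
      rw [hdd]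
    rw [← h1, h3]
  -- exchanging the order of summation
  have hswap : ∀ F : β → β → Finset β → ℝ,
      ∑ w ∈ J, ∑ z ∈ J, ∑ U ∈ P, F w z U = ∑ U ∈ P, ∑ w ∈ J, ∑ z ∈ J, F w z U := by
    intro F
    rw [sum_congr rfl (fun w _ => sum_comm (s := J) (t := P) (f := fun z U => F w z U))]
    rw [sum_comm]
  -- the total weight vanishes
  have hsum : ∑ w ∈ J, ∑ z ∈ J, c w z = 0 := by
    have h1 : ∑ w ∈ J, ∑ z ∈ J, ∑ U ∈ P, sep U w z * g U
        = 2 * (k : ℝ) * ((J.card : ℝ) - (k : ℝ)) * T := by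
      rw [hswap (fun w z U => sep U w z * g U), hT, mul_sum]
      refine sum_congr rfl (fun U hU => ?_)
      have hκ : ∑ w ∈ J, ∑ z ∈ J, sep U w z = 2 * (k : ℝ) * ((J.card : ℝ) - (k : ℝ)) := by
        rw [sum_sep_all J U (hUJ U hU), hUk U hU]
      rw [← hκ, sum_mul]
      refine sum_congr rfl (fun w _ => ?_)
      rw [sum_mul]
    have h2 : ∑ w ∈ J, ∑ z ∈ J, c w z
        = N * (∑ w ∈ J, ∑ z ∈ J, ∑ U ∈ P, sep U w z * g U)
          - n1 J k * T * ∑ w ∈ J, ∑ z ∈ J, (1 - dl w z) := by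
      rw [mul_sum, mul_sum, ← sum_sub_distrib]
      refine sum_congr rfl (fun w _ => ?_)
      rw [mul_sum, mul_sum, ← sum_sub_distrib]
      refine sum_congr rfl (fun z _ => ?_)
      exact hcf w z
    rw [h2, h1, hdd]
    linear_combination (T) * hcount
  -- the sum of the squares of `c` is a pairing of `g` with the cut weight of `c`
  have hW : ∑ w ∈ J, ∑ z ∈ J, c w z ^ 2 = N * ∑ U ∈ P, g U * cutw J c U := by
    have h1 : ∀ w z, c w z ^ 2
        = N * (∑ U ∈ P, c w z * (sep U w z * g U)) - n1 J k * T * c w z := by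
      intro w z
      by_cases hwz : w = z
      · subst hwz
        rw [hdiag w]
        simp
      · rw [← mul_sum, sq]
        nth_rewrite 2 [hcne w z hwz]
        ring
    have h2 : ∑ w ∈ J, ∑ z ∈ J, c w z ^ 2
        = N * (∑ w ∈ J, ∑ z ∈ J, ∑ U ∈ P, c w z * (sep U w z * g U))
          - n1 J k * T * ∑ w ∈ J, ∑ z ∈ J, c w z := by
      rw [mul_sum, mul_sum, ← sum_sub_distrib]
      refine sum_congr rfl (fun w _ => ?_)
      rw [mul_sum, mul_sum, ← sum_sub_distrib]
      refine sum_congr rfl (fun z _ => ?_)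
      exact h1 w z
    rw [h2, hsum, mul_zero, sub_zero, hswap (fun w z U => c w z * (sep U w z * g U))]
    congr 1
    refine sum_congr rfl (fun U _ => ?_)
    unfold cutw
    rw [mul_sum]
    refine sum_congr rfl (fun w _ => ?_)
    rw [mul_sum]
    refine sum_congr rfl (fun z _ => ?_)
    ring
  -- the cut weight of `c` has mean zero
  have hC0 : ∑ U ∈ P, cutw J c U = 0 := by
    unfold cutw
    rw [← hswap (fun w z U => c w z * sep U w z)]
    have h1 : ∀ w ∈ J, ∀ z ∈ J, ∑ U ∈ P, c w z * sep U w z = n1 J k * c w z := by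
      intro w hw z hz
      by_cases hwz : w = z
      · subst hwz
        rw [hdiag w]
        simp
      · rw [← mul_sum, sum_sep J k hw hz hwz]
        ring
    rw [sum_congr rfl (fun w hw => sum_congr rfl (fun z hz => h1 w hw z hz))]
    simp_rw [← mul_sum]
    rw [hsum, mul_zero]
  -- Cauchy-Schwarz
  have hCS := sum_mul_sq_le_sq_mul_sq P (fun U => N * g U - T) (fun U => cutw J c U)
  have e6 : ∑ U ∈ P, (N * g U - T) * cutw J c U = ∑ w ∈ J, ∑ z ∈ J, c w z ^ 2 := by
    have h1 : ∑ U ∈ P, (N * g U - T) * cutw J c U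
        = N * (∑ U ∈ P, g U * cutw J c U) - T * ∑ U ∈ P, cutw J c U := by
      rw [mul_sum, mul_sum, ← sum_sub_distrib]
      refine sum_congr rfl (fun U _ => ?_)
      ring
    rw [h1, hC0, mul_zero, sub_zero, hW]
  have e7 : ∑ U ∈ P, (N * g U - T) ^ 2 = N * jV P g := by
    have h1 : ∑ U ∈ P, (N * g U - T) ^ 2
        = N ^ 2 * (∑ U ∈ P, g U ^ 2) - 2 * N * T * (∑ U ∈ P, g U) + N * T ^ 2 := by
      have h2 : ∀ U, (N * g U - T) ^ 2 = N ^ 2 * g U ^ 2 - 2 * N * T * g U + T ^ 2 := by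
        intro U
        ring
      simp_rw [h2]
      rw [sum_add_distrib, sum_sub_distrib, ← mul_sum, ← mul_sum, sum_const, nsmul_eq_mul]
    rw [h1]
    unfold jV
    rw [← hT, ← hN]
    ring
  rw [e6, e7] at hCS
  have hcut := cutw_sq_le J k c hsym hdiag hsum hm
  have hjV := jV_nonneg P g
  have hN0 : 0 ≤ N := Nat.cast_nonneg _
  have hn1 := n1_nonneg J k
  have hWnn : 0 ≤ ∑ w ∈ J, ∑ z ∈ J, c w z ^ 2 :=
    sum_nonneg (fun w _ => sum_nonneg (fun z _ => sq_nonneg _))
  have h8 : (∑ w ∈ J, ∑ z ∈ J, c w z ^ 2) ^ 2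
      ≤ (N * n1 J k * ((J.card : ℝ) - 2) * jV P g) * ∑ w ∈ J, ∑ z ∈ J, c w z ^ 2 := by
    have h9 := mul_le_mul_of_nonneg_left hcut (mul_nonneg hN0 hjV)
    nlinarith
  rcases hWnn.lt_or_eq with hpos | hzero
  · rw [sq] at h8
    exact le_of_mul_le_mul_right h8 hpos
  · rw [← hzero]
    exact mul_nonneg (mul_nonneg (mul_nonneg hN0 hn1) (by linarith)) hjV

end Static

end JP

end KTV
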